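import Mathlib
import Crest.Agent.Lib.BiasedCube

/-!
# Low-degree stars carry little Fourier mass
-/

namespace Crest.Agent.R56

open Finset Crest.Agent.BC

variable {ι : Type*} [Fintype ι] [DecidableEq ι] {p : ℝ}

theorem star_bound (h0 : 0 < p) (h1 : p < 1) (g : (ι → Bool) → ℝ) (B : Finset ι) (d : ℕ) :
    ∑ T with (T ⊆ B ∧ T.Nonempty ∧ T.card ≤ d), fc p g T ^ 2
      ≤ (2 / sg p) ^ d * √(∑ T with (T ⊆ B ∧ T.Nonempty), fc p g T ^ 2)
        * ∑ e ∈ B, E p fun ω => |D e g ω| := by
  have hs := sg_pos h0 h1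
  have hs1 : sg p ≤ 1 := (sg_le_half h0 h1).trans (by norm_num)
  set M := ∑ T with (T ⊆ B ∧ T.Nonempty), fc p g T ^ 2 with hM
  have step1 : ∑ T with (T ⊆ B ∧ T.Nonempty ∧ T.card ≤ d), fc p g T ^ 2
      ≤ ∑ e ∈ B, ∑ T with (T ⊆ B ∧ e ∈ T ∧ T.card ≤ d), fc p g T ^ 2 := by
    simp only [sum_filter]
    rw [sum_comm]
    refine sum_le_sum fun T _ => ?_
    split_ifs with h
    · obtain ⟨hB, ⟨e, he⟩, hd⟩ := h
      refine le_trans ?_ (single_le_sum (f := fun e => if T ⊆ B ∧ e ∈ T ∧ T.card ≤ d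
        then fc p g T ^ 2 else 0) (fun i _ => by positivity) (hB he))
      simp [hB, he, hd]
    · exact sum_nonneg fun i _ => by positivity
  refine step1.trans ?_
  rw [mul_sum]
  refine sum_le_sum fun e he => ?_
  set φ := cond p B (D e g) with hφ
  have hfc : ∀ T, sg p * fc p φ T = if T ⊆ B ∧ e ∉ T then fc p g (insert e T) else 0 := by
    intro T
    rw [hφ, fc_cond h0 h1]
    by_cases hT : T ⊆ B
    · rw [if_pos hT, fc_D h0 h1]
      by_cases heT : e ∈ T <;> simp [hT, heT]
    · simp [hT]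
  have a1 : ∑ T with (T ⊆ B ∧ e ∈ T ∧ T.card ≤ d), fc p g T ^ 2
      ≤ sg p ^ 2 * ∑ T with T.card ≤ d, fc p φ T ^ 2 := by
    rw [mul_sum]
    simp only [← mul_pow, hfc]
    have hinj : Set.InjOn (fun T : Finset ι => T.erase e)
        (univ.filter fun T => T ⊆ B ∧ e ∈ T ∧ T.card ≤ d : Finset (Finset ι)) := by
      intro T hT T' hT' h
      have e1 := (mem_filter.1 hT).2.2.1
      have e2 := (mem_filter.1 hT').2.2.1
      rw [← insert_erase e1, ← insert_erase e2]
      exact congrArg _ h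
    refine le_trans (le_of_eq ?_) (sum_le_sum_of_subset_of_nonneg
      (s := (univ.filter fun T => T ⊆ B ∧ e ∈ T ∧ T.card ≤ d).image fun T => T.erase e) ?_
      fun _ _ _ => sq_nonneg _)
    · rw [sum_image hinj]
      refine sum_congr rfl fun T hT => ?_
      obtain ⟨hB, heT, -⟩ := (mem_filter.1 hT).2
      rw [if_pos ⟨(erase_subset _ _).trans hB, notMem_erase _ _⟩, insert_erase heT]
    · intro T hT
      obtain ⟨T', hT', rfl⟩ := mem_image.1 hT
      exact mem_filter.2 ⟨mem_univ _, card_erase_le.trans (mem_filter.1 hT').2.2.2⟩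
  have a2 := low_degree h0 h1 φ (univ.filter fun T => T.card ≤ d) d
    fun T hT => (mem_filter.1 hT).2
  have a3 : sg p ^ 2 * E p (fun ω => φ ω ^ 2) ≤ M := by
    rw [parseval_sq h0 h1, mul_sum]
    simp only [← mul_pow, hfc]
    have e1 : ∀ T : Finset ι, (if T ⊆ B ∧ e ∉ T then fc p g (insert e T) else 0) ^ 2
        = if e ∈ T then 0 else (if insert e T ⊆ B then fc p g (insert e T) ^ 2 else 0) := by
      intro T
      by_cases heT : e ∈ T
      · simp [heT]
      · by_cases hT : T ⊆ B <;> simp [heT, hT, insert_subset_iff, he]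
    simp only [e1]
    rw [sum_mem_eq e (fun S => if S ⊆ B then fc p g S ^ 2 else 0), ← sum_filter, filter_filter]
    refine sum_le_sum_of_subset_of_nonneg (fun T hT => ?_) fun _ _ _ => sq_nonneg _
    obtain ⟨h2, h3⟩ := (mem_filter.1 hT).2
    exact mem_filter.2 ⟨mem_univ _, h3, e, h2⟩
  have a4 : sg p * √(E p fun ω => φ ω ^ 2) ≤ √M := by
    rw [← Real.sqrt_sq hs.le, ← Real.sqrt_mul (sq_nonneg _)]
    exact Real.sqrt_le_sqrt a3
  have a5 := E_abs_cond_le h0 h1 B (D e g)
  have a6 : 0 ≤ E p fun ω => |φ ω| := E_nonneg h0.le h1.le fun ω => abs_nonneg _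
  calc _ ≤ sg p ^ 2 * ((2 / sg p) ^ d * √(E p fun ω => φ ω ^ 2) * E p fun ω => |φ ω|) :=
        a1.trans (mul_le_mul_of_nonneg_left a2 (sq_nonneg _))
    _ = sg p * ((2 / sg p) ^ d * (sg p * √(E p fun ω => φ ω ^ 2)) * E p fun ω => |φ ω|) := by
        ring
    _ ≤ 1 * ((2 / sg p) ^ d * √M * E p fun ω => |D e g ω|) := by gcongr
    _ = _ := one_mul _

variable {V : Type*} [Fintype V] [DecidableEq V]

/-- Slots missing `W`. -/
def outS (vs : ι → Finset V) (W : Finset V) : Finset ι := univ.filter fun e => vs e ∩ W = ∅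

/-- Slots meeting `W` exactly in `x`. -/
def starS (vs : ι → Finset V) (W : Finset V) (x : V) : Finset ι :=
  univ.filter fun e => vs e ∩ W = {x}

/-- Invariance of `f` under transpositions of vertices. -/
def Symm (vs : ι → Finset V) (f : (ι → Bool) → ℝ) : Prop :=
  ∀ x y : V, ∃ τ : Equiv.Perm ι,
    (∀ e, vs (τ e) = (vs e).map (Equiv.swap x y).toEmbedding) ∧ ∀ ω, f (ω ∘ τ) = f ω

omit [Fintype V] in
theorem map_swap_inter {x y : V} {W : Finset V} (hx : x ∈ W) (hy : y ∈ W) (s : Finset V) :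
    s.map (Equiv.swap x y).toEmbedding ∩ W = (s ∩ W).map (Equiv.swap x y).toEmbedding := by
  ext z
  simp only [mem_inter, mem_map_equiv, Equiv.symm_swap]
  refine and_congr_right fun _ => ?_
  rw [Equiv.swap_apply_def]
  split_ifs with h1 h2
  · subst h1; exact iff_of_true hx hy
  · subst h2; exact iff_of_true hy hx
  · rfl

omit [Fintype V] in
theorem star_mass_le (h0 : 0 < p) (h1 : p < 1) {vs : ι → Finset V} (hinj : Function.Injective vs)
    {f : (ι → Bool) → ℝ} (hf : ∀ ω, f ω ^ 2 ≤ 1) (hsym : Symm vs f) {W : Finset V} {x : V}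
    (hx : x ∈ W) (a : ι → Bool) :
    (W.card : ℝ) * ∑ T with (T ⊆ starS vs W x ∧ T.Nonempty),
      fc p (fun ω => f ((outS vs W).piecewise a ω)) T ^ 2 ≤ 1 := by
  set g : (ι → Bool) → ℝ := fun ω => f ((outS vs W).piecewise a ω) with hg
  have heq : ∀ y ∈ W, ∑ T with (T ⊆ starS vs W x ∧ T.Nonempty), fc p g T ^ 2
      = ∑ T with (T ⊆ starS vs W y ∧ T.Nonempty), fc p g T ^ 2 := by
    intro y hy
    obtain ⟨τ, hτ, hfτ⟩ := hsym x y
    have hout : ∀ e, τ e ∈ outS vs W ↔ e ∈ outS vs W := by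
      intro e
      simp only [outS, mem_filter, mem_univ, true_and, hτ, map_swap_inter hx hy, map_eq_empty]
    have hfix : ∀ e ∈ outS vs W, τ e = e := by
      intro e he
      apply hinj
      rw [hτ]
      have he' : vs e ∩ W = ∅ := (mem_filter.1 he).2
      have hxe : x ∉ vs e := fun h => by
        have : x ∈ vs e ∩ W := mem_inter.2 ⟨h, hx⟩
        simp [he'] at this
      have hye : y ∉ vs e := fun h => by
        have : y ∈ vs e ∩ W := mem_inter.2 ⟨h, hy⟩
        simp [he'] at this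
      ext z
      simp only [mem_map_equiv, Equiv.symm_swap]
      rw [Equiv.swap_apply_def]
      split_ifs with h1 h2
      · subst h1; exact iff_of_false hye hxe
      · subst h2; exact iff_of_false hxe hye
      · rfl
    have hstar : ∀ e, τ e ∈ starS vs W y ↔ e ∈ starS vs W x := by
      intro e
      simp only [starS, mem_filter, mem_univ, true_and, hτ, map_swap_inter hx hy]
      have : ({y} : Finset V) = ({x} : Finset V).map (Equiv.swap x y).toEmbedding := by simp
      rw [this, map_inj]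
    have hgτ : ∀ ω, g (ω ∘ τ) = g ω := by
      intro ω
      simp only [hg]
      rw [← hfτ ((outS vs W).piecewise a ω)]
      congr 1
      funext e
      by_cases he : e ∈ outS vs W
      · simp only [Function.comp_apply]
        rw [piecewise_eq_of_mem _ _ _ he, hfix e he, piecewise_eq_of_mem _ _ _ he]
      · simp only [Function.comp_apply]
        rw [piecewise_eq_of_notMem _ _ _ he,
          piecewise_eq_of_notMem _ _ _ (fun h => he ((hout e).1 h)), Function.comp_apply]
    refine sum_equiv (Equiv.finsetCongr τ) (fun T => ?_) (fun T _ => ?_)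
    · simp only [mem_filter, mem_univ, true_and, Equiv.finsetCongr_apply, map_nonempty]
      refine and_congr_left fun _ => ⟨fun h e he => ?_, fun h e he => ?_⟩
      · obtain ⟨e', he', rfl⟩ := mem_map.1 he
        exact (hstar e').2 (h he')
      · exact (hstar e).1 (h (mem_map_of_mem _ he))
    · rw [Equiv.finsetCongr_apply, fc_perm τ hgτ]
  rw [← nsmul_eq_mul, ← sum_const, sum_congr rfl heq]
  have h2 : ∑ T, fc p g T ^ 2 ≤ 1 := by
    rw [← parseval_sq h0 h1]
    exact (E_mono h0.le h1.le fun ω => hf _).trans (E_const 1).le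
  refine le_trans ?_ h2
  simp only [sum_filter]
  rw [sum_comm]
  refine sum_le_sum fun T _ => ?_
  rw [← sum_filter, sum_const, nsmul_eq_mul]
  refine mul_le_of_le_one_left (sq_nonneg _) ?_
  norm_cast
  rw [card_le_one]
  intro y hy z hz
  obtain ⟨hy1, e, he⟩ := (mem_filter.1 hy).2
  have e1 := (mem_filter.1 (hy1 he)).2
  have e2 := (mem_filter.1 ((mem_filter.1 hz).2.1 he)).2
  exact singleton_injective (e1.symm.trans e2)

omit [Fintype V] in
theorem star_total (h0 : 0 < p) (h1 : p < 1) {vs : ι → Finset V} (hinj : Function.Injective vs)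
    {f : (ι → Bool) → ℝ} (hf : ∀ ω, f ω ^ 2 ≤ 1) (hsym : Symm vs f) {W : Finset V} {x : V}
    (hx : x ∈ W) (d : ℕ) :
    ∑ S with (S \ outS vs W ⊆ starS vs W x ∧ (S \ outS vs W).Nonempty ∧ (S \ outS vs W).card ≤ d),
      fc p f S ^ 2
      ≤ (2 / sg p) ^ d * √(1 / W.card) * ∑ e ∈ starS vs W x, E p fun ω => |D e f ω| := by
  have hs := sg_pos h0 h1
  have hW : (0 : ℝ) < W.card := by exact_mod_cast card_pos.2 ⟨x, hx⟩
  have l1 : ∑ S with (S \ outS vs W ⊆ starS vs W x ∧ (S \ outS vs W).Nonempty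
        ∧ (S \ outS vs W).card ≤ d), fc p f S ^ 2
      = E p fun a => ∑ T with (T ⊆ starS vs W x ∧ T.Nonempty ∧ T.card ≤ d),
        fc p (fun ω => f ((outS vs W).piecewise a ω)) T ^ 2 := by
    rw [E_sum]
    simp only [E_fc_restr_sq h0 h1]
    rw [sum_fiberwise_eq_sum_filter]
    refine sum_congr ?_ fun _ _ => rfl
    ext S
    simp
  have l2 : ∑ e ∈ starS vs W x, E p (fun ω => |D e f ω|)
      = E p fun a => ∑ e ∈ starS vs W x,
        E p fun ω => |D e (fun ω => f ((outS vs W).piecewise a ω)) ω| := by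
    rw [E_sum]
    refine sum_congr rfl fun e he => ?_
    have heA : e ∉ outS vs W := by
      intro h
      have e1 := (mem_filter.1 he).2
      rw [(mem_filter.1 h).2] at e1
      exact singleton_ne_empty x e1.symm
    rw [← E_piecewise h0 h1 (outS vs W) (fun ω => |D e f ω|)]
    simp only [D, update_piecewise_of_notMem _ _ _ heA]
  rw [l1, l2, ← E_const_mul]
  refine E_mono h0.le h1.le fun a => (star_bound h0 h1 _ _ d).trans ?_
  have l3 := star_mass_le h0 h1 hinj hf hsym hx a
  have l4 : 0 ≤ ∑ e ∈ starS vs W x,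
      E p fun ω => |D e (fun ω => f ((outS vs W).piecewise a ω)) ω| :=
    sum_nonneg fun e _ => E_nonneg h0.le h1.le fun ω => abs_nonneg _
  gcongr
  rw [le_div_iff₀ hW, mul_comm]
  exact l3

end Crest.Agent.R56
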