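import Mathlib
import Crest.Agent.R56.Star

/-!
# Averaging over vertex sets and the main inequality
-/

namespace Crest.Agent.R56

open Finset Crest.Agent.BC

variable {ι : Type*} [Fintype ι] [DecidableEq ι] {p : ℝ}
variable {V : Type*} [Fintype V] [DecidableEq V]

theorem count_mem (m : ℕ) (hm : 1 ≤ m) (x : V) :
    ((powersetCard m (univ : Finset V)).filter (x ∈ ·)).card
      = (Fintype.card V - 1).choose (m - 1) := by
  have := card_filter_powersetCard_subset {x} (univ : Finset V) m (subset_univ _) (by simpa)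
  simpa using this

theorem count_inter (m : ℕ) (hm : 2 ≤ m) (U : Finset V) {x : V} (hx : x ∈ U)
    (hU : 2 * U.card * m ≤ Fintype.card V) :
    (Fintype.card V - 1).choose (m - 1)
      ≤ 2 * ((powersetCard m (univ : Finset V)).filter (fun W => W ∩ U = {x})).card := by
  set n := Fintype.card V with hn
  have hU1 : 1 ≤ U.card := card_pos.2 ⟨x, hx⟩
  have hsub : (powersetCard m (univ : Finset V)).filter (x ∈ ·)
      ⊆ (powersetCard m (univ : Finset V)).filter (fun W => W ∩ U = {x})
        ∪ (U.erase x).biUnion fun y =>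
          (powersetCard m (univ : Finset V)).filter (({x, y} : Finset V) ⊆ ·) := by
    intro W hW
    obtain ⟨hW1, hW2⟩ := mem_filter.1 hW
    by_cases h : W ∩ U = {x}
    · exact mem_union_left _ (mem_filter.2 ⟨hW1, h⟩)
    · obtain ⟨y, hy, hyx⟩ : ∃ y ∈ W ∩ U, y ≠ x := by
        by_contra hc
        push Not at hc
        exact h (eq_singleton_iff_unique_mem.2 ⟨mem_inter.2 ⟨hW2, hx⟩, hc⟩)
      refine mem_union_right _ (mem_biUnion.2 ⟨y, mem_erase.2 ⟨hyx, (mem_inter.1 hy).2⟩,
        mem_filter.2 ⟨hW1, ?_⟩⟩)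
      exact insert_subset hW2 (singleton_subset_iff.2 (mem_inter.1 hy).1)
  have h1 := (card_le_card hsub).trans (card_union_le _ _)
  rw [count_mem m (by omega), ← hn] at h1
  have h2 : ((U.erase x).biUnion fun y =>
      (powersetCard m (univ : Finset V)).filter (({x, y} : Finset V) ⊆ ·)).card
        ≤ U.card * (n - 2).choose (m - 2) := by
    refine card_biUnion_le.trans ?_
    refine (sum_le_card_nsmul _ _ ((n - 2).choose (m - 2)) fun y hy => ?_).trans ?_
    · have hc : ({x, y} : Finset V).card = 2 := card_pair (ne_of_mem_erase hy).symm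
      have := card_filter_powersetCard_subset {x, y} (univ : Finset V) m (subset_univ _)
        (by omega)
      rw [this, hc, card_univ]
    · rw [smul_eq_mul]
      exact Nat.mul_le_mul_right _ card_erase_le
  have hn4 : 4 ≤ n := by nlinarith
  have h3 : (n - 1) * (n - 2).choose (m - 2) = (n - 1).choose (m - 1) * (m - 1) := by
    have := Nat.add_one_mul_choose_eq (n - 2) (m - 2)
    rwa [show n - 2 + 1 = n - 1 by omega, show m - 2 + 1 = m - 1 by omega] at this
  have h4 : 2 * U.card * (m - 1) ≤ n - 1 := by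
    obtain ⟨k, rfl⟩ : ∃ k, m = k + 1 := ⟨m - 1, by omega⟩
    rw [Nat.add_sub_cancel]
    have : 2 * U.card * k + 1 ≤ n := by nlinarith
    omega
  have h5 : (n - 1) * (2 * (U.card * (n - 2).choose (m - 2)))
      ≤ (n - 1) * (n - 1).choose (m - 1) := by
    calc _ = 2 * U.card * ((n - 1) * (n - 2).choose (m - 2)) := by ring
      _ = 2 * U.card * (m - 1) * (n - 1).choose (m - 1) := by rw [h3]; ring
      _ ≤ _ := Nat.mul_le_mul_right _ h4
  have h6 := Nat.le_of_mul_le_mul_left h5 (by omega)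
  omega

omit [Fintype ι] [DecidableEq ι] [Fintype V] in
theorem exists_min_deg {vs : ι → Finset V} (hinj : Function.Injective vs) {r : ℕ} (hr : 1 ≤ r)
    (hcard : ∀ e, (vs e).card = r) {S : Finset ι} (hS : S.Nonempty) :
    ∃ x ∈ S.biUnion vs, (S.filter (x ∈ vs ·)).card ^ r ≤ r ^ r * S.card ^ (r - 1) := by
  set U := S.biUnion vs with hU
  have hUne : U.Nonempty := by
    obtain ⟨e, he⟩ := hS
    obtain ⟨x, hx⟩ : (vs e).Nonempty := card_pos.1 (by rw [hcard]; omega)
    exact ⟨x, mem_biUnion.2 ⟨e, he, hx⟩⟩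
  obtain ⟨x, hx, hmin⟩ := exists_min_image U (fun x => (S.filter (x ∈ vs ·)).card) hUne
  refine ⟨x, hx, ?_⟩
  set δ := (S.filter (x ∈ vs ·)).card
  have h1 : U.card * δ ≤ r * S.card := by
    have e1 : ∑ y ∈ U, (S.filter (y ∈ vs ·)).card = ∑ e ∈ S, (vs e).card := by
      simp only [card_filter]
      rw [sum_comm]
      refine sum_congr rfl fun e he => ?_
      rw [← card_filter, filter_mem_eq_inter, inter_eq_right.2 (subset_biUnion_of_mem vs he)]
    have e2 := card_nsmul_le_sum U (fun y => (S.filter (y ∈ vs ·)).card) δ hmin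
    rw [e1, smul_eq_mul] at e2
    simpa [hcard, mul_comm] using e2
  have h2 : S.card ≤ U.card ^ r := by
    refine le_trans ?_ (Nat.choose_le_pow U.card r)
    rw [← card_powersetCard]
    refine card_le_card_of_injOn vs (fun e he => ?_) hinj.injOn
    exact mem_coe.2 (mem_powersetCard.2 ⟨subset_biUnion_of_mem vs he, hcard e⟩)
  have h3 : δ ^ r * S.card ≤ r ^ r * S.card ^ (r - 1) * S.card := by
    calc δ ^ r * S.card ≤ δ ^ r * U.card ^ r := Nat.mul_le_mul_left _ h2
      _ = (U.card * δ) ^ r := by rw [mul_pow, mul_comm]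
      _ ≤ (r * S.card) ^ r := Nat.pow_le_pow_left h1 r
      _ = _ := by
        obtain ⟨k, rfl⟩ : ∃ k, r = k + 1 := ⟨r - 1, by omega⟩
        rw [Nat.add_sub_cancel, mul_pow]
        ring
  exact Nat.le_of_mul_le_mul_right h3 (card_pos.2 hS)

theorem mass_bound (h0 : 0 < p) (h1 : p < 1) {vs : ι → Finset V} (hinj : Function.Injective vs)
    {r : ℕ} (hr : 1 ≤ r) (hcard : ∀ e, (vs e).card = r)
    {f : (ι → Bool) → ℝ} (hf : ∀ ω, f ω ^ 2 ≤ 1) (hsym : Symm vs f) (m d T : ℕ) (hm : 2 ≤ m)
    (hmn : m ≤ Fintype.card V) (hT : 2 * (r * T) * m ≤ Fintype.card V)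
    (hd : ∀ δ : ℕ, δ ^ r ≤ r ^ r * T ^ (r - 1) → δ ≤ d) :
    ∑ S with (S.Nonempty ∧ S.card ≤ T), fc p f S ^ 2
      ≤ 2 * r * ((2 / sg p) ^ d * √(1 / m)) * ∑ e, E p fun ω => |D e f ω| := by
  have hs := sg_pos h0 h1
  set N := (Fintype.card V - 1).choose (m - 1) with hN
  have hN0 : (0 : ℝ) < N := by
    have : 0 < N := Nat.choose_pos (by omega)
    exact_mod_cast this
  set 𝒲 := powersetCard m (univ : Finset V) with h𝒲
  set A : ℝ := (2 / sg p) ^ d * √(1 / m) with hA
  have hA0 : 0 ≤ A := by positivity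
  have hI : ∀ e, 0 ≤ E p fun ω => |D e f ω| := fun e =>
    E_nonneg h0.le h1.le fun ω => abs_nonneg _
  have up : ∑ W ∈ 𝒲, ∑ x ∈ W, ∑ S with (S \ outS vs W ⊆ starS vs W x ∧ (S \ outS vs W).Nonempty
        ∧ (S \ outS vs W).card ≤ d), fc p f S ^ 2
      ≤ A * (r * N * ∑ e, E p fun ω => |D e f ω|) := by
    calc _ ≤ ∑ W ∈ 𝒲, ∑ x ∈ W, A * ∑ e ∈ starS vs W x, E p fun ω => |D e f ω| := by
          refine sum_le_sum fun W hW => sum_le_sum fun x hx => ?_
          have := star_total h0 h1 hinj hf hsym hx d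
          rwa [(mem_powersetCard.1 hW).2] at this
      _ ≤ ∑ W ∈ 𝒲, A * ∑ e, ∑ x ∈ vs e, if x ∈ W then E p fun ω => |D e f ω| else 0 := by
          refine sum_le_sum fun W _ => ?_
          rw [← mul_sum]
          refine mul_le_mul_of_nonneg_left ?_ hA0
          simp only [starS, sum_filter]
          rw [sum_comm]
          refine sum_le_sum fun e _ => ?_
          rw [← sum_filter, ← sum_filter]
          refine sum_le_sum_of_subset_of_nonneg (fun x hx => ?_) fun _ _ _ => hI e
          obtain ⟨hx1, hx2⟩ := mem_filter.1 hx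
          have : x ∈ vs e ∩ W := by rw [hx2]; exact mem_singleton_self x
          exact mem_filter.2 (mem_inter.1 this)
      _ = _ := by
          rw [← mul_sum, sum_comm]
          congr 1
          rw [mul_sum]
          refine sum_congr rfl fun e _ => ?_
          rw [sum_comm]
          simp only [← sum_filter, sum_const, nsmul_eq_mul, h𝒲, count_mem m (by omega), hcard]
          ring
  have low : N / 2 * ∑ S with (S.Nonempty ∧ S.card ≤ T), fc p f S ^ 2
      ≤ ∑ W ∈ 𝒲, ∑ x ∈ W, ∑ S with (S \ outS vs W ⊆ starS vs W x ∧ (S \ outS vs W).Nonempty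
        ∧ (S \ outS vs W).card ≤ d), fc p f S ^ 2 := by
    simp only [sum_filter]
    rw [sum_congr rfl fun W _ => sum_comm, sum_comm, mul_sum]
    refine sum_le_sum fun S _ => ?_
    split_ifs with hS
    swap
    · rw [mul_zero]
      exact sum_nonneg fun _ _ => sum_nonneg fun _ _ => by positivity
    obtain ⟨x, hxU, hx⟩ := exists_min_deg hinj hr hcard hS.1
    have hdeg : (S.filter (x ∈ vs ·)).card ≤ d :=
      hd _ (hx.trans (Nat.mul_le_mul_left _ (Nat.pow_le_pow_left hS.2 _)))
    have hUc : (S.biUnion vs).card ≤ r * T := by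
      refine card_biUnion_le.trans ?_
      simp only [hcard, sum_const, smul_eq_mul]
      rw [mul_comm]
      exact Nat.mul_le_mul_left _ hS.2
    have hc := count_inter m hm (S.biUnion vs) hxU
      ((Nat.mul_le_mul_right _ (Nat.mul_le_mul_left _ hUc)).trans hT)
    have hc' : (N : ℝ) / 2 ≤ (𝒲.filter (fun W => W ∩ S.biUnion vs = {x})).card := by
      rw [div_le_iff₀ two_pos, mul_comm]
      exact_mod_cast hc
    refine (mul_le_mul_of_nonneg_right hc' (sq_nonneg _)).trans ?_
    rw [← nsmul_eq_mul, ← sum_const, sum_filter]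
    refine sum_le_sum fun W _ => ?_
    split_ifs with hW
    swap
    · exact sum_nonneg fun _ _ => by positivity
    have hxW : x ∈ W := by
      have : x ∈ W ∩ S.biUnion vs := by rw [hW]; exact mem_singleton_self x
      exact (mem_inter.1 this).1
    have hmem : ∀ e ∈ S, ∀ y ∈ vs e ∩ W, y = x := by
      intro e he y hy
      have : y ∈ W ∩ S.biUnion vs :=
        mem_inter.2 ⟨(mem_inter.1 hy).2, mem_biUnion.2 ⟨e, he, (mem_inter.1 hy).1⟩⟩
      rwa [hW, mem_singleton] at this
    have hdiff : S \ outS vs W = S.filter (x ∈ vs ·) := by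
      ext e
      simp only [outS, mem_sdiff, mem_filter, mem_univ, true_and]
      refine and_congr_right fun he => ⟨fun h => ?_, fun h h' => ?_⟩
      · obtain ⟨y, hy⟩ := nonempty_iff_ne_empty.2 h
        exact hmem e he y hy ▸ (mem_inter.1 hy).1
      · have : x ∈ vs e ∩ W := mem_inter.2 ⟨h, hxW⟩
        simp [h'] at this
    refine le_trans ?_ (single_le_sum (f := fun x => if S \ outS vs W ⊆ starS vs W x
      ∧ (S \ outS vs W).Nonempty ∧ (S \ outS vs W).card ≤ d then fc p f S ^ 2 else 0)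
      (fun _ _ => by positivity) hxW)
    rw [if_pos]
    rw [hdiff]
    refine ⟨fun e he => ?_, ?_, hdeg⟩
    · obtain ⟨he1, he2⟩ := mem_filter.1 he
      exact mem_filter.2 ⟨mem_univ _, eq_singleton_iff_unique_mem.2
        ⟨mem_inter.2 ⟨he2, hxW⟩, hmem e he1⟩⟩
    · obtain ⟨e, he, hxe⟩ := mem_biUnion.1 hxU
      exact ⟨e, mem_filter.2 ⟨he, hxe⟩⟩
  have h := low.trans up
  refine le_of_mul_le_mul_left (h.trans (le_of_eq ?_)) (half_pos hN0)
  ring

/-- Markov's inequality for the spectral degree. -/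
theorem var_le_mass (h0 : 0 < p) (h1 : p < 1) (f : (ι → Bool) → ℝ) (T : ℕ) :
    ((T : ℝ) + 1) * (E p (fun ω => f ω ^ 2) - E p f ^ 2)
      ≤ (T + 1) * ∑ S with (S.Nonempty ∧ S.card ≤ T), fc p f S ^ 2
        + sg p ^ 2 * ∑ e, E p fun ω => D e f ω ^ 2 := by
  rw [sum_E_D_sq h0 h1, parseval_sq h0 h1, ← fc_empty, sum_filter, mul_sum, ← sum_add_distrib,
    ← sum_erase_eq_sub (mem_univ ∅), mul_sum]
  refine le_trans (sum_le_sum fun S hS => ?_) (sum_le_sum_of_subset_of_nonneg (erase_subset ∅ _)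
    fun _ _ _ => by positivity)
  have hne : S.Nonempty := nonempty_iff_ne_empty.2 (ne_of_mem_erase hS)
  by_cases h : S.card ≤ T
  · rw [if_pos ⟨hne, h⟩]
    have : (0 : ℝ) ≤ S.card * fc p f S ^ 2 := by positivity
    linarith
  · rw [if_neg (fun h' => h h'.2), mul_zero, zero_add]
    have : (T : ℝ) + 1 ≤ S.card := by exact_mod_cast not_le.1 h
    exact mul_le_mul_of_nonneg_right this (sq_nonneg _)

theorem poincare (h0 : 0 < p) (h1 : p < 1) (f : (ι → Bool) → ℝ) :
    E p (fun ω => f ω ^ 2) - E p f ^ 2 ≤ 1 / 4 * ∑ e, E p fun ω => D e f ω ^ 2 := by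
  have h := var_le_mass h0 h1 f 0
  have e : (univ.filter fun S : Finset ι => S.Nonempty ∧ S.card ≤ 0) = ∅ := by
    ext S
    simp [nonempty_iff_ne_empty]
  rw [e, sum_empty] at h
  have h2 : sg p ^ 2 ≤ 1 / 4 := by nlinarith [sg_pos h0 h1, sg_le_half h0 h1]
  have h3 : 0 ≤ ∑ e, E p fun ω => D e f ω ^ 2 :=
    sum_nonneg fun _ _ => E_nonneg h0.le h1.le fun _ => sq_nonneg _
  have h4 := mul_le_mul_of_nonneg_right h2 h3
  simp only [Nat.cast_zero, zero_add, one_mul, mul_zero] at h
  linarith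

end Crest.Agent.R56
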