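import Mathlib
import Crest.Agent.R56.Core

/-!
# The influence bound for symmetric functions
-/

namespace Crest.Agent.R56

open Finset Crest.Agent.BC

variable {ι : Type*} [Fintype ι] [DecidableEq ι] {p : ℝ}
variable {V : Type*} [Fintype V] [DecidableEq V]

omit [Fintype ι] in
theorem D_sq_eq_abs {f : (ι → Bool) → ℝ} (hf : ∀ ω, f ω = 0 ∨ f ω = 1) (e : ι) (ω : ι → Bool) :
    D e f ω ^ 2 = |D e f ω| := by
  rw [D]
  rcases hf (Function.update ω e true) with h | h <;>
    rcases hf (Function.update ω e false) with h' | h' <;> simp [h, h']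

theorem var_eq {f : (ι → Bool) → ℝ} (hf : ∀ ω, f ω = 0 ∨ f ω = 1) :
    E p (fun ω => f ω ^ 2) - E p f ^ 2 = E p f * (1 - E p f) := by
  have : (fun ω => f ω ^ 2) = f := by
    funext ω
    rcases hf ω with h | h <;> simp [h]
  rw [this]
  ring

theorem poincare_bool (h0 : 0 < p) (h1 : p < 1) {f : (ι → Bool) → ℝ}
    (hf : ∀ ω, f ω = 0 ∨ f ω = 1) :
    E p f * (1 - E p f) ≤ 1 / 4 * ∑ e, E p fun ω => |D e f ω| := by
  have h := poincare h0 h1 f
  simpa only [var_eq hf, D_sq_eq_abs hf] using h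

theorem key_large (h0 : 0 < p) (h1 : p < 1) {vs : ι → Finset V} (hinj : Function.Injective vs)
    {r : ℕ} (hr : 2 ≤ r) (hcard : ∀ e, (vs e).card = r)
    {f : (ι → Bool) → ℝ} (hf : ∀ ω, f ω = 0 ∨ f ω = 1) (hsym : Symm vs f)
    (hL : 16 ≤ Real.log (Fintype.card V)) {K : ℝ} (hK : 0 < K)
    (hK1 : (2 * (32 * r) ^ 2 * K) ^ (r - 1) ≤ Real.log (Fintype.card V) ^ r)
    (hK2 : 2 * (32 * r) ^ 2 * K ≤ Real.log (Fintype.card V) ^ 2) :
    K * (E p f * (1 - E p f)) ≤ ∑ e, E p fun ω => |D e f ω| := by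
  by_contra hcon
  push Not at hcon
  set n := Fintype.card V with hn
  set L := Real.log n with hLdef
  set I := ∑ e, E p fun ω => |D e f ω| with hI
  set Var := E p f * (1 - E p f) with hVar
  have hI0 : 0 ≤ I := sum_nonneg fun e _ => E_nonneg h0.le h1.le fun ω => abs_nonneg _
  have hVar0 : 0 < Var := by
    by_contra h
    nlinarith [not_lt.1 h]
  have hs := sg_pos h0 h1
  have hs2 := sg_le_half h0 h1
  have hr' : (2 : ℝ) ≤ r := by exact_mod_cast hr
  have hn0 : (0 : ℝ) < n := by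
    rcases Nat.eq_zero_or_pos n with h | h
    · rw [hLdef, h] at hL
      norm_num at hL
    · exact_mod_cast h
  set u := Real.exp (L / 16) with hu
  have hun : u ^ 16 = n := by
    rw [hu, ← Real.exp_nat_mul, ← Real.exp_log hn0]
    congr 1
    push_cast
    ring
  have hu2 : 2 ≤ u := by
    have := Real.add_one_le_exp (L / 16)
    linarith
  have hLu : L ≤ 16 * u := by
    have := Real.add_one_le_exp (L / 16)
    linarith
  have hKu : 8 * r ^ 2 * K ≤ u ^ 2 := by
    have : L ^ 2 ≤ (16 * u) ^ 2 := pow_le_pow_left₀ (by linarith) hLu 2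
    nlinarith
  set T := ⌊2 * sg p ^ 2 * K⌋₊ with hT
  have hT1 : (T : ℝ) ≤ 2 * sg p ^ 2 * K := Nat.floor_le (by positivity)
  have hT2 : 2 * sg p ^ 2 * K < T + 1 := Nat.lt_floor_add_one _
  set d := ⌊sg p * L / 32⌋₊ with hd
  have hd1 : (d : ℝ) ≤ sg p * L / 32 := Nat.floor_le (by positivity)
  set m := Nat.sqrt n with hm
  have hm1 : (m : ℝ) ≤ u ^ 8 := by
    have h : ((m : ℝ)) ^ 2 ≤ (u ^ 8) ^ 2 := by
      rw [← pow_mul, hun]
      exact_mod_cast Nat.sqrt_le' n
    exact le_of_sq_le_sq h (by positivity)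
  have hm2 : u ^ 8 < m + 1 := by
    have h : (u ^ 8) ^ 2 < ((m : ℝ) + 1) ^ 2 := by
      rw [← pow_mul, hun]
      exact_mod_cast Nat.lt_succ_sqrt' n
    exact lt_of_pow_lt_pow_left₀ 2 (by positivity) h
  have hu8 : (256 : ℝ) ≤ u ^ 8 := by
    have := pow_le_pow_left₀ (by norm_num) hu2 8
    norm_num at this
    exact this
  have hm3 : 2 ≤ m := by
    have : (2 : ℝ) ≤ m := by linarith
    exact_mod_cast this
  have hTm : 2 * (r * T) * m ≤ n := by
    have e1 : (r : ℝ) * T ≤ u ^ 2 / 2 := by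
      have a1 : (T : ℝ) ≤ K := by nlinarith [mul_pos hs hK]
      nlinarith [mul_le_mul_of_nonneg_left a1 (by positivity : (0 : ℝ) ≤ r), mul_pos hK hK,
        mul_pos (by positivity : (0 : ℝ) < r) hK]
    have e2 : (2 : ℝ) * (r * T) * m ≤ u ^ 16 := by
      calc (2 : ℝ) * (r * T) * m ≤ 2 * (u ^ 2 / 2) * u ^ 8 := by gcongr
        _ = u ^ 10 := by ring
        _ ≤ u ^ 16 := pow_le_pow_right₀ (by linarith) (by norm_num)
    rw [hun] at e2
    exact_mod_cast e2
  have hdd : ∀ δ : ℕ, δ ^ r ≤ r ^ r * T ^ (r - 1) → δ ≤ d := by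
    intro δ hδ
    refine Nat.le_floor (le_of_pow_le_pow_left₀ (n := r) (by omega) (by positivity) ?_)
    have e1 : (δ : ℝ) ^ r ≤ (r : ℝ) ^ r * (T : ℝ) ^ (r - 1) := by exact_mod_cast hδ
    have e2 : (T : ℝ) ≤ (sg p / (32 * r)) ^ 2 * (2 * (32 * r) ^ 2 * K) := by
      refine hT1.trans (le_of_eq ?_)
      field_simp
    have e3 : sg p / (32 * r) ≤ 1 := by
      rw [div_le_one (by positivity)]
      linarith
    calc (δ : ℝ) ^ r ≤ (r : ℝ) ^ r * ((sg p / (32 * r)) ^ 2 * (2 * (32 * r) ^ 2 * K)) ^ (r - 1) :=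
          e1.trans (by gcongr)
      _ = (r : ℝ) ^ r * ((sg p / (32 * r)) ^ (2 * (r - 1)) * (2 * (32 * r) ^ 2 * K) ^ (r - 1)) := by
          rw [mul_pow, ← pow_mul]
      _ ≤ (r : ℝ) ^ r * ((sg p / (32 * r)) ^ r * L ^ r) := by
          gcongr _ * (?_ * ?_)
          exact pow_le_pow_of_le_one (by positivity) e3 (by omega)
      _ = (sg p * L / 32) ^ r := by
          rw [← mul_pow, ← mul_pow]
          congr 1
          field_simp
  have hf2 : ∀ ω, f ω ^ 2 ≤ 1 := fun ω => by rcases hf ω with h | h <;> simp [h]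
  have hM := mass_bound h0 h1 hinj (by omega) hcard hf2 hsym m d T hm3 (Nat.sqrt_le_self n)
    hTm hdd
  have hV := var_le_mass h0 h1 f T
  simp only [var_eq hf, D_sq_eq_abs hf] at hV
  rw [← hI] at hM hV
  rw [← hVar] at hV
  set M := ∑ S with (S.Nonempty ∧ S.card ≤ T), fc p f S ^ 2
  have b1 : Var / 2 ≤ M := by
    have c1 : sg p ^ 2 * I ≤ sg p ^ 2 * (K * Var) := mul_le_mul_of_nonneg_left hcon.le (sq_nonneg _)
    have c2 : 2 * sg p ^ 2 * K * Var ≤ (T + 1) * Var := mul_le_mul_of_nonneg_right hT2.le hVar0.le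
    have c3 : ((T : ℝ) + 1) * (Var / 2) ≤ (T + 1) * M := by nlinarith
    exact le_of_mul_le_mul_left c3 (by positivity)
  have b2 : (2 / sg p) ^ d ≤ u := by
    calc (2 / sg p) ^ d ≤ Real.exp (2 / sg p) ^ d := by
          gcongr
          linarith [Real.add_one_le_exp (2 / sg p)]
      _ = Real.exp (d * (2 / sg p)) := by rw [Real.exp_nat_mul]
      _ ≤ u := by
          rw [hu]
          gcongr
          calc (d : ℝ) * (2 / sg p) ≤ sg p * L / 32 * (2 / sg p) := by gcongr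
            _ = L / 16 := by field_simp; ring
  have b3 : √(1 / (m : ℝ)) ≤ 2 / u ^ 4 := by
    rw [Real.sqrt_le_left (by positivity), div_pow, div_le_div_iff₀ (by linarith) (by positivity)]
    nlinarith
  have b4 : 2 * r * ((2 / sg p) ^ d * √(1 / (m : ℝ))) * I
      < 2 * r * (u * (2 / u ^ 4)) * (K * Var) := by
    calc _ ≤ 2 * r * (u * (2 / u ^ 4)) * I := by gcongr
      _ < _ := mul_lt_mul_of_pos_left hcon (by positivity)
  have b5 : 2 * r * (u * (2 / u ^ 4)) * K ≤ 1 / 2 := by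
    have e : 2 * r * (u * (2 / u ^ 4)) * K = 4 * (r * K) / u ^ 3 := by field_simp; ring
    rw [e, div_le_iff₀ (by positivity)]
    have a1 : 8 * (r * K) ≤ u ^ 2 := by nlinarith [mul_pos (by positivity : (0 : ℝ) < r) hK]
    nlinarith [pow_pos (by positivity : 0 < u) 2]
  nlinarith [mul_le_mul_of_nonneg_right b5 hVar0.le]

/-- The influence bound for all sizes of the vertex set. -/
theorem key (h0 : 0 < p) (h1 : p < 1) {vs : ι → Finset V} (hinj : Function.Injective vs)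
    {r : ℕ} (hr : 2 ≤ r) (hcard : ∀ e, (vs e).card = r)
    {f : (ι → Bool) → ℝ} (hf : ∀ ω, f ω = 0 ∨ f ω = 1) (hsym : Symm vs f) {K : ℝ} (hK : 0 < K)
    (hK1 : (2 * (32 * r) ^ 2 * K) ^ (r - 1) ≤ Real.log (Fintype.card V) ^ r)
    (hK2 : 2 * (32 * r) ^ 2 * K ≤ max 1 (Real.log (Fintype.card V) ^ 2)) :
    K * (E p f * (1 - E p f)) ≤ ∑ e, E p fun ω => |D e f ω| := by
  have hr' : (2 : ℝ) ≤ r := by exact_mod_cast hr
  by_cases hL : 16 ≤ Real.log (Fintype.card V)
  · refine key_large h0 h1 hinj hr hcard hf hsym hL hK hK1 (hK2.trans (max_le ?_ le_rfl))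
    nlinarith
  · have hL0 : 0 ≤ Real.log (Fintype.card V) := Real.log_natCast_nonneg _
    have h2 : max 1 (Real.log (Fintype.card V) ^ 2) ≤ 256 := max_le (by norm_num) (by nlinarith)
    have h3 : K ≤ 1 := by nlinarith [mul_pos hK hK]
    have h4 := poincare_bool h0 h1 hf
    have hI0 : 0 ≤ ∑ e, E p fun ω => |D e f ω| :=
      sum_nonneg fun e _ => E_nonneg h0.le h1.le fun ω => abs_nonneg _
    calc _ ≤ K * (1 / 4 * ∑ e, E p fun ω => |D e f ω|) := mul_le_mul_of_nonneg_left h4 hK.le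
      _ ≤ _ := by nlinarith

theorem bernoulliProb_eq (S : Set (ι → Bool)) [DecidablePred (· ∈ S)] :
    Crest.FinProb.bernoulliProb p S = E p fun ω => if ω ∈ S then 1 else 0 := by
  simp only [Crest.FinProb.bernoulliProb, E, sum_filter, mul_ite, mul_one, mul_zero]
  exact sum_congr rfl fun ω _ => by congr

end Crest.Agent.R56
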