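import Mathlib
import Crest.Agent.R56.Main

/-!
# Russo's formula and the threshold window
-/

namespace Crest.Agent.R56

open Finset Crest.Agent.BC

variable {ι : Type*} [Fintype ι] [DecidableEq ι]

theorem continuous_E (f : (ι → Bool) → ℝ) : Continuous fun t : ℝ => E t f := by
  simp only [E, Crest.FinProb.bernoulliWeight]
  refine continuous_finsetSum _ fun ω _ => Continuous.mul ?_ continuous_const
  refine continuous_finsetProd _ fun i _ => ?_
  split_ifs <;> fun_prop

theorem russo (f : (ι → Bool) → ℝ) {t : ℝ} (h0 : 0 < t) (h1 : t < 1) :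
    HasDerivAt (fun t : ℝ => E t f) (∑ e, E t (D e f)) t := by
  have hs := sg_pos h0 h1
  have hsq := sg_sq h0 h1
  have hw : ∀ ω : ι → Bool, HasDerivAt (fun t : ℝ => Crest.FinProb.bernoulliWeight t ω)
      (∑ e, Crest.FinProb.bernoulliWeight t ω * (ch1 t (ω e) / sg t)) t := by
    intro ω
    have h := HasDerivAt.fun_finsetProd (u := univ)
      (f := fun (i : ι) (t : ℝ) => if ω i then t else 1 - t)
      (f' := fun i => if ω i then (1 : ℝ) else -1) (x := t) (fun i _ => by
        split_ifs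
        · exact hasDerivAt_id t
        · exact (hasDerivAt_id t).const_sub 1)
    refine h.congr_deriv (sum_congr rfl fun e _ => ?_)
    rw [Crest.FinProb.bernoulliWeight, ← prod_erase_mul _ _ (mem_univ e), smul_eq_mul, mul_assoc]
    congr 1
    have h1' : 1 - t ≠ 0 := (sub_pos.2 h1).ne'
    cases ω e
    · simp only [ch1, Bool.false_eq_true, if_false]
      field_simp
      linarith
    · simp only [ch1, if_true]
      field_simp
      linarith
  have h := HasDerivAt.fun_sum (u := univ) fun ω _ => (hw ω).mul_const (f ω)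
  refine h.congr_deriv ?_
  simp only [sum_mul]
  rw [sum_comm]
  refine sum_congr rfl fun e _ => ?_
  have h2 := fc_D h0 h1 e f ∅
  rw [fc_empty, if_neg (notMem_empty e)] at h2
  apply mul_left_cancel₀ hs.ne'
  rw [h2, fc, E, mul_sum]
  refine sum_congr rfl fun ω _ => ?_
  rw [chi_insert (notMem_empty e), chi_empty]
  field_simp

theorem window {μ μ' : ℝ → ℝ} (hc : Continuous μ) {c : ℝ} (hc0 : 0 < c)
    (hd : ∀ t, 0 < t → t < 1 → HasDerivAt μ (μ' t) t) (hd0 : ∀ t, 0 < t → t < 1 → 0 ≤ μ' t)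
    (hk : ∀ t, 0 < t → t < 1 → c * (μ t * (1 - μ t)) ≤ μ' t)
    {ε p q : ℝ} (hε0 : 0 < ε) (hε : ε < 1 / 2) (hp0 : 0 ≤ p) (hq1 : q ≤ 1) (hp : ε ≤ μ p)
    (hq : p + 4 / c * Real.log (1 / (2 * ε)) ≤ q) : 1 - ε ≤ μ q := by
  by_contra hcon
  push Not at hcon
  have hlog : 0 < Real.log (1 / (2 * ε)) := by
    apply Real.log_pos
    rw [lt_div_iff₀ (by positivity)]
    linarith
  have hpq : p ≤ q := by
    have : 0 ≤ 4 / c * Real.log (1 / (2 * ε)) := by positivity
    linarith
  have hint : ∀ t ∈ interior (Set.Icc p q), 0 < t ∧ t < 1 := by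
    intro t ht
    rw [interior_Icc] at ht
    exact ⟨hp0.trans_lt ht.1, ht.2.trans_le hq1⟩
  have hmono : MonotoneOn μ (Set.Icc p q) :=
    monotoneOn_of_hasDerivWithinAt_nonneg (convex_Icc p q) hc.continuousOn
      (fun t ht => (hd t (hint t ht).1 (hint t ht).2).hasDerivWithinAt)
      (fun t ht => hd0 t (hint t ht).1 (hint t ht).2)
  have hb : ∀ t ∈ Set.Icc p q, 0 < μ t ∧ 0 < 1 - μ t := by
    intro t ht
    have a := hmono (Set.left_mem_Icc.2 hpq) ht ht.1
    have b := hmono ht (Set.right_mem_Icc.2 hpq) ht.2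
    constructor <;> linarith
  have hg : MonotoneOn (fun t => Real.log (μ t) - Real.log (1 - μ t) - c * t) (Set.Icc p q) := by
    refine monotoneOn_of_hasDerivWithinAt_nonneg (convex_Icc p q) ?_
      (f' := fun t => μ' t / μ t - (-μ' t) / (1 - μ t) - c * 1) (fun t ht => ?_) (fun t ht => ?_)
    · refine ContinuousOn.sub (ContinuousOn.sub ?_ ?_) (by fun_prop)
      · exact hc.continuousOn.log fun t ht => (hb t ht).1.ne'
      · exact (continuous_const.sub hc).continuousOn.log fun t ht => (hb t ht).2.ne'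
    · have h := hd t (hint t ht).1 (hint t ht).2
      have hb' := hb t (interior_subset ht)
      exact (((h.log hb'.1.ne').sub ((h.const_sub 1).log hb'.2.ne')).sub
        ((hasDerivAt_id t).const_mul c)).hasDerivWithinAt
    · have h := hk t (hint t ht).1 (hint t ht).2
      obtain ⟨b1, b2⟩ := hb t (interior_subset ht)
      have e : μ' t / μ t - (-μ' t) / (1 - μ t) - c * 1
          = (μ' t - c * (μ t * (1 - μ t))) / (μ t * (1 - μ t)) := by
        field_simp
        ring
      rw [e]
      exact div_nonneg (sub_nonneg.2 h) (mul_pos b1 b2).le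
  have h1 := hg (Set.left_mem_Icc.2 hpq) (Set.right_mem_Icc.2 hpq) hpq
  simp only at h1
  obtain ⟨p1, p2⟩ := hb p (Set.left_mem_Icc.2 hpq)
  obtain ⟨q1, q2⟩ := hb q (Set.right_mem_Icc.2 hpq)
  have l1 : Real.log ε ≤ Real.log (μ p) := Real.log_le_log hε0 hp
  have l2 : Real.log (1 - μ p) ≤ Real.log (1 - ε) := Real.log_le_log p2 (by linarith)
  have l3 : Real.log (μ q) < Real.log (1 - ε) := Real.log_lt_log q1 hcon
  have l4 : Real.log ε ≤ Real.log (1 - μ q) := Real.log_le_log hε0 (by linarith)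
  have l5 : Real.log (1 - ε) - Real.log ε ≤ 2 * Real.log (1 / (2 * ε)) := by
    rw [← Real.log_div (by linarith) hε0.ne', ← Real.log_rpow (by positivity)]
    refine Real.log_le_log (div_pos (by linarith) hε0) ?_
    rw [Real.rpow_two, div_pow, div_le_div_iff₀ hε0 (by positivity)]
    nlinarith [mul_nonneg hε0.le (sq_nonneg (1 - 2 * ε))]
  have l6 : 4 * Real.log (1 / (2 * ε)) ≤ c * (q - p) := by
    have : 4 / c * Real.log (1 / (2 * ε)) ≤ q - p := by linarith
    rwa [div_mul_eq_mul_div, div_le_iff₀ hc0, mul_comm (q - p)] at this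
  linarith

end Crest.Agent.R56
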